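import Mathlib
import Vale.Agent.P252.Defs

/-!
Contact set lemma and Aleksandrov-Bakelman-Pucci type estimate, matrix arithmetic-geometric mean.
-/

open scoped ContDiff Topology Matrix RealInnerProductSpace
open MeasureTheory Set Filter

namespace Vale.Agent.P252.H402

variable {n : ℕ}

/-! ### The contact point -/

theorem exists_contact {F : Type*} [NormedAddCommGroup F] [InnerProductSpace ℝ F]
    {S U : Set F} (hS : IsCompact S) {φ : F → ℝ} (hφ : ContinuousOn φ S) {x₀ : F} (hx₀ : x₀ ∈ S)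
    {m d : ℝ} (hm : φ x₀ ≤ -m) (hd : ∀ x ∈ S, ‖x - x₀‖ ≤ d) (hb : ∀ x ∈ S, x ∉ U → 0 ≤ φ x)
    {p : F} (hp : ‖p‖ * d < m) :
    ∃ x ∈ U, x ∈ S ∧ φ x < 0 ∧ ∀ y ∈ S, φ x - ⟪p, x⟫ ≤ φ y - ⟪p, y⟫ := by
  obtain ⟨x, hxS, hx⟩ := hS.exists_isMinOn ⟨x₀, hx₀⟩
    (hφ.sub (by fun_prop : Continuous fun y : F => ⟪p, y⟫).continuousOn)
  have h1 : ∀ y ∈ S, φ x - ⟪p, x⟫ ≤ φ y - ⟪p, y⟫ := fun y hy => hx hy
  have h2 : φ x < 0 := by
    have := h1 x₀ hx₀
    have h3 : ⟪p, x⟫ - ⟪p, x₀⟫ ≤ ‖p‖ * d := by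
      rw [← inner_sub_right]
      exact (real_inner_le_norm _ _).trans
        (mul_le_mul_of_nonneg_left (hd x hxS) (norm_nonneg _))
    linarith
  refine ⟨x, ?_, hxS, h2, h1⟩
  by_contra hni
  exact absurd (hb x hxS hni) (not_le.2 h2)

/-- Second order necessary condition in one variable. -/
theorem nonneg_of_isLocalMin {g g' : ℝ → ℝ} {c : ℝ}
    (h1 : ∀ᶠ t in 𝓝 (0 : ℝ), HasDerivAt g (g' t) t) (h2 : HasDerivAt g' c 0)
    (hmin : IsLocalMin g 0) : 0 ≤ c := by
  by_contra hc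
  push Not at hc
  have h0 : g' 0 = 0 := hmin.hasDerivAt_eq_zero h1.self_of_nhds
  have h3 := hasDerivAt_iff_tendsto_slope.1 h2
  have h4 : ∀ᶠ t in 𝓝[≠] (0 : ℝ), slope g' 0 t < 0 := h3.eventually_lt_const hc
  have h5 : ∀ᶠ t in 𝓝[>] (0 : ℝ), g' t < 0 := by
    have : ∀ᶠ t in 𝓝[>] (0 : ℝ), slope g' 0 t < 0 :=
      h4.filter_mono (nhdsWithin_mono _ (fun t ht => ne_of_gt ht))
    filter_upwards [this, self_mem_nhdsWithin] with t ht ht0
    have ht0' : (0 : ℝ) < t := ht0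
    rw [slope_def_field, h0, sub_zero, sub_zero] at ht
    by_contra hcon
    push Not at hcon
    exact absurd ht (not_lt.2 (div_nonneg hcon ht0'.le))
  obtain ⟨ε, hε, hall⟩ : ∃ ε > 0, ∀ t, 0 < t → t < ε → g' t < 0 := by
    rw [eventually_nhdsWithin_iff, Metric.eventually_nhds_iff] at h5
    obtain ⟨ε, hε, h⟩ := h5
    refine ⟨ε, hε, fun t h0 h1 => h (by rw [Real.dist_eq, sub_zero, abs_of_pos h0]; exact h1) h0⟩
  obtain ⟨δ, hδ, hder⟩ := Metric.eventually_nhds_iff.1 h1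
  obtain ⟨ρ, hρ, hmi⟩ := Metric.eventually_nhds_iff.1 hmin
  set t := min ε (min δ ρ) / 2 with ht
  have htpos : 0 < t := by positivity
  have ht1 : t < ε := by
    have : min ε (min δ ρ) ≤ ε := min_le_left _ _
    linarith
  have ht2 : t < δ := by
    have : min ε (min δ ρ) ≤ δ := (min_le_right _ _).trans (min_le_left _ _)
    linarith
  have ht3 : t < ρ := by
    have : min ε (min δ ρ) ≤ ρ := (min_le_right _ _).trans (min_le_right _ _)
    linarith
  have hcont : ContinuousOn g (Icc 0 t) := fun s hs =>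
    (hder (by rw [Real.dist_eq, sub_zero, abs_of_nonneg hs.1]; exact hs.2.trans_lt ht2)).continuousAt.continuousWithinAt
  have hanti : StrictAntiOn g (Icc 0 t) := by
    refine strictAntiOn_of_deriv_neg (convex_Icc 0 t) hcont ?_
    intro s hs
    rw [interior_Icc] at hs
    rw [(hder (by rw [Real.dist_eq, sub_zero, abs_of_nonneg hs.1.le]; exact hs.2.trans ht2)).deriv]
    exact hall s hs.1 (hs.2.trans ht1)
  have h6 : g t < g 0 := hanti ⟨le_rfl, htpos.le⟩ ⟨htpos.le, le_rfl⟩ htpos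
  have h7 : g 0 ≤ g t := hmi (by rw [Real.dist_eq, sub_zero, abs_of_pos htpos]; exact ht3)
  linarith

/-! ### Hessian and gradient -/

theorem differentiableAt_fderiv {φ : EuclideanSpace ℝ (Fin n) → ℝ} {x : EuclideanSpace ℝ (Fin n)}
    (h : ContDiffAt ℝ 2 φ x) : DifferentiableAt ℝ (fderiv ℝ φ) x :=
  (h.fderiv_right (m := 1) (by norm_num)).differentiableAt (by norm_num)

theorem hess_apply {φ : EuclideanSpace ℝ (Fin n) → ℝ} {x : EuclideanSpace ℝ (Fin n)}
    (h : ContDiffAt ℝ 2 φ x) (i j : Fin n) :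
    hess φ x i j = fderiv ℝ (fderiv ℝ φ) x (EuclideanSpace.single i 1)
      (EuclideanSpace.single j 1) := by
  have h1 : HasFDerivAt (pd j φ) ((fderiv ℝ (fderiv ℝ φ) x).flip (EuclideanSpace.single j 1)) x :=
    ((ContinuousLinearMap.apply ℝ ℝ (EuclideanSpace.single j (1 : ℝ))).hasFDerivAt.comp x
      (differentiableAt_fderiv h).hasFDerivAt)
  simp only [hess, Matrix.of_apply]
  rw [pd, h1.fderiv]
  rfl

theorem euc_sum (v : EuclideanSpace ℝ (Fin n)) :
    v = ∑ i, v i • EuclideanSpace.single i (1 : ℝ) := by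
  ext j
  simp [Finset.sum_apply, Pi.single_apply]

theorem hess_quad {φ : EuclideanSpace ℝ (Fin n) → ℝ} {x : EuclideanSpace ℝ (Fin n)}
    (h : ContDiffAt ℝ 2 φ x) (v w : EuclideanSpace ℝ (Fin n)) :
    ∑ i, ∑ j, v i * hess φ x i j * w j = fderiv ℝ (fderiv ℝ φ) x v w := by
  conv_rhs => rw [euc_sum v, euc_sum w]
  simp only [map_sum, map_smul, _root_.sum_apply, _root_.smul_apply, smul_eq_mul]
  rw [Finset.sum_comm]
  refine Finset.sum_congr rfl fun i _ => ?_
  rw [Finset.mul_sum]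
  refine Finset.sum_congr rfl fun j _ => ?_
  rw [hess_apply h]
  ring

theorem hess_isHermitian {φ : EuclideanSpace ℝ (Fin n) → ℝ} {x : EuclideanSpace ℝ (Fin n)}
    (h : ContDiffAt ℝ 2 φ x) : (hess φ x).IsHermitian := by
  ext i j
  rw [Matrix.conjTranspose_apply, star_trivial, hess_apply h, hess_apply h]
  exact (h.isSymmSndFDerivAt (by simp)).eq _ _

/-- The Hessian is positive semidefinite at an interior minimum of `φ - ⟪p, ·⟫`, and the gradient
is `p`. -/
theorem contact_conditions {φ : EuclideanSpace ℝ (Fin n) → ℝ} {x : EuclideanSpace ℝ (Fin n)}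
    (h : ContDiffAt ℝ 2 φ x) {p : EuclideanSpace ℝ (Fin n)}
    (hmin : IsLocalMin (fun y => φ y - ⟪p, y⟫) x) :
    (∀ i, pd i φ x = p i) ∧ (hess φ x).PosSemidef := by
  have hd : DifferentiableAt ℝ φ x := h.differentiableAt (by norm_num)
  have hF : HasFDerivAt (fun y => φ y - ⟪p, y⟫) (fderiv ℝ φ x - innerSL ℝ p) x :=
    hd.hasFDerivAt.sub (innerSL ℝ p).hasFDerivAt
  have h0 := hmin.hasFDerivAt_eq_zero hF
  refine ⟨fun i => ?_, ?_⟩
  · have := congrArg (fun L : EuclideanSpace ℝ (Fin n) →L[ℝ] ℝ => L (EuclideanSpace.single i 1)) h0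
    simp only [_root_.sub_apply, innerSL_apply_apply, _root_.zero_apply,
      EuclideanSpace.inner_single_right, one_mul] at this
    rw [pd]
    simpa [sub_eq_zero] using this
  · refine Matrix.PosSemidef.of_dotProduct_mulVec_nonneg (hess_isHermitian h) fun v => ?_
    set w : EuclideanSpace ℝ (Fin n) := WithLp.toLp 2 v with hw
    have hq : star v ⬝ᵥ (hess φ x *ᵥ v) = fderiv ℝ (fderiv ℝ φ) x w w := by
      rw [← hess_quad h w w]
      simp only [dotProduct, Matrix.mulVec, star_trivial, hw, Finset.mul_sum]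
      exact Finset.sum_congr rfl fun i _ => Finset.sum_congr rfl fun j _ => by ring
    rw [hq]
    have hline : ∀ t : ℝ, HasDerivAt (fun s : ℝ => x + s • w) w t := fun t => by
      simpa using ((hasDerivAt_id t).smul_const w).const_add x
    have hev : ∀ᶠ y in 𝓝 x, DifferentiableAt ℝ φ y := by
      filter_upwards [h.eventually (by norm_num)] with y hy
      exact hy.differentiableAt (by norm_num)
    have htend : Tendsto (fun s : ℝ => x + s • w) (𝓝 0) (𝓝 x) := by
      have : Continuous fun s : ℝ => x + s • w := by fun_prop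
      simpa using this.tendsto 0
    refine nonneg_of_isLocalMin (g := fun t => φ (x + t • w) - ⟪p, x + t • w⟫)
      (g' := fun t => fderiv ℝ φ (x + t • w) w - ⟪p, w⟫) ?_ ?_ ?_
    · filter_upwards [htend.eventually hev] with t ht
      have h1 := ht.hasFDerivAt.comp_hasDerivAt t (hline t)
      have h2 := (innerSL ℝ p).hasFDerivAt.comp_hasDerivAt t (hline t)
      exact h1.sub h2
    · have h1 : HasFDerivAt (fderiv ℝ φ) (fderiv ℝ (fderiv ℝ φ) x) (x + (0 : ℝ) • w) := by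
        simpa using (differentiableAt_fderiv h).hasFDerivAt
      have h2 := h1.comp_hasDerivAt 0 (hline 0)
      have h3 := (ContinuousLinearMap.apply ℝ ℝ w).hasFDerivAt.comp_hasDerivAt (0 : ℝ) h2
      simpa using h3.sub_const ⟪p, w⟫
    · have := htend.eventually hmin
      filter_upwards [this] with t ht
      simpa using ht

/-! ### The gradient map and the area formula -/

/-- The gradient of `φ` as a vector. -/
noncomputable def grad (φ : EuclideanSpace ℝ (Fin n) → ℝ) (x : EuclideanSpace ℝ (Fin n)) :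
    EuclideanSpace ℝ (Fin n) := WithLp.toLp 2 fun i => pd i φ x

theorem hasFDerivAt_grad {φ : EuclideanSpace ℝ (Fin n) → ℝ} {x : EuclideanSpace ℝ (Fin n)}
    (h : ContDiffAt ℝ 2 φ x) :
    HasFDerivAt (grad φ) (Matrix.toEuclideanLin (hess φ x)ᵀ).toContinuousLinearMap x := by
  rw [← hasFDerivWithinAt_univ, hasFDerivWithinAt_euclidean]
  intro i
  rw [hasFDerivWithinAt_univ]
  have h1 : HasFDerivAt (pd i φ) ((fderiv ℝ (fderiv ℝ φ) x).flip (EuclideanSpace.single i 1)) x :=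
    ((ContinuousLinearMap.apply ℝ ℝ (EuclideanSpace.single i (1 : ℝ))).hasFDerivAt.comp x
      (differentiableAt_fderiv h).hasFDerivAt)
  refine h1.congr_fderiv ?_
  ext v
  simp only [ContinuousLinearMap.comp_apply, ContinuousLinearMap.flip_apply]
  rw [← hess_quad h]
  simp [Matrix.toLpLin_apply, Matrix.mulVec, dotProduct, mul_comm]

theorem det_toEuclideanLin (A : Matrix (Fin n) (Fin n) ℝ) :
    (Matrix.toEuclideanLin A).toContinuousLinearMap.det = A.det := by
  rw [ContinuousLinearMap.det, LinearMap.coe_toContinuousLinearMap]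
  exact LinearMap.det_toLin (PiLp.basisFun 2 ℝ (Fin n)) A

theorem continuousAt_hess {φ : EuclideanSpace ℝ (Fin n) → ℝ} {x : EuclideanSpace ℝ (Fin n)}
    (h : ContDiffAt ℝ 2 φ x) : ContinuousAt (hess φ) x := by
  have h1 : ∀ᶠ y in 𝓝 x, ContDiffAt ℝ 2 φ y := h.eventually (by norm_num)
  have h2 : ContinuousAt (fderiv ℝ (fderiv ℝ φ)) x :=
    ((h.fderiv_right (m := 1) (by norm_num)).fderiv_right (m := 0) (by norm_num)).continuousAt
  have h3 : ContinuousAt (fun y => Matrix.of fun i j =>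
      fderiv ℝ (fderiv ℝ φ) y (EuclideanSpace.single i 1) (EuclideanSpace.single j 1)) x := by
    refine continuousAt_pi.2 fun i => continuousAt_pi.2 fun j => ?_
    exact (h2.clm_apply continuousAt_const).clm_apply continuousAt_const
  refine h3.congr ?_
  filter_upwards [h1] with y hy
  ext i j
  rw [hess_apply hy]
  rfl

/-- The contact set used in the Aleksandrov-Bakelman-Pucci argument. -/
def contactSet (U : Set (EuclideanSpace ℝ (Fin n))) (φ : EuclideanSpace ℝ (Fin n) → ℝ) :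
    Set (EuclideanSpace ℝ (Fin n)) :=
  {x | x ∈ U ∧ φ x < 0 ∧ (hess φ x).PosSemidef}

theorem measurableSet_contactSet {U : Set (EuclideanSpace ℝ (Fin n))} (hU : IsOpen U)
    {φ : EuclideanSpace ℝ (Fin n) → ℝ} (h2 : ∀ x ∈ U, ContDiffAt ℝ 2 φ x) :
    MeasurableSet (contactSet U φ) := by
  have hφ : ContinuousOn φ U := fun x hx => (h2 x hx).continuousAt.continuousWithinAt
  have hh : ContinuousOn (hess φ) U := fun x hx =>
    (continuousAt_hess (h2 x hx)).continuousWithinAt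
  set C : Set (Matrix (Fin n) (Fin n) ℝ) := {A | ∀ v : Fin n → ℝ, 0 ≤ v ⬝ᵥ (A *ᵥ v)} with hC
  have hCc : IsClosed C := by
    rw [hC, ofPred_forall]
    refine isClosed_iInter fun v => isClosed_le continuous_const ?_
    exact Continuous.dotProduct continuous_const
      (Continuous.matrix_mulVec continuous_id continuous_const)
  have h3 : contactSet U φ = (U ∩ φ ⁻¹' Iio 0) \ (U ∩ hess φ ⁻¹' Cᶜ) := by
    ext x
    simp only [contactSet, mem_ofPred_eq, Set.mem_sdiff, mem_inter_iff, mem_preimage, mem_Iio,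
      mem_compl_iff, not_and, not_not]
    constructor
    · rintro ⟨a, b, c⟩
      refine ⟨⟨a, b⟩, fun _ => ?_⟩
      rw [hC]
      intro v
      simpa using c.dotProduct_mulVec_nonneg v
    · rintro ⟨⟨a, b⟩, c⟩
      refine ⟨a, b, Matrix.PosSemidef.of_dotProduct_mulVec_nonneg (hess_isHermitian (h2 x a)) ?_⟩
      intro v
      simpa using c a v
  rw [h3]
  exact (hφ.isOpen_inter_preimage hU isOpen_Iio).measurableSet.diff
    (hh.isOpen_inter_preimage hU hCc.isOpen_compl).measurableSet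

/-- **Contact set lemma.** Let `U` be an open subset of the compact set `S`. If `φ ≥ 0` on `S \ U`,
`φ x₀ ≤ -m` and `S` lies in the ball of radius `d` around `x₀`, then every `p` with `|p| < m / d`
is a gradient of `φ` at a point of the contact set. -/
theorem ball_subset_grad_image {S U : Set (EuclideanSpace ℝ (Fin n))} (hS : IsCompact S)
    (hU : IsOpen U) (hUS : U ⊆ S)
    {φ : EuclideanSpace ℝ (Fin n) → ℝ} (hφ : ContinuousOn φ S)
    (h2 : ∀ x ∈ U, ContDiffAt ℝ 2 φ x) {x₀ : EuclideanSpace ℝ (Fin n)} (hx₀ : x₀ ∈ S)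
    {m d : ℝ} (hd0 : 0 < d) (hm : φ x₀ ≤ -m) (hd : ∀ x ∈ S, ‖x - x₀‖ ≤ d)
    (hb : ∀ x ∈ S, x ∉ U → 0 ≤ φ x) :
    Metric.ball (0 : EuclideanSpace ℝ (Fin n)) (m / d) ⊆ grad φ '' contactSet U φ := by
  intro p hp
  rw [mem_ball_zero_iff, lt_div_iff₀ hd0] at hp
  obtain ⟨x, hx, -, hneg, hmin⟩ := exists_contact hS hφ hx₀ hm hd hb hp
  have hloc : IsLocalMin (fun y => φ y - ⟪p, y⟫) x := by
    filter_upwards [hU.mem_nhds hx] with y hy
    exact hmin y (hUS hy)
  obtain ⟨h3, h4⟩ := contact_conditions (h2 x hx) hloc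
  refine ⟨x, ⟨hx, hneg, h4⟩, ?_⟩
  ext i
  exact h3 i

/-- **Aleksandrov-Bakelman-Pucci estimate**, integral form. -/
theorem abp {S U : Set (EuclideanSpace ℝ (Fin n))} (hS : IsCompact S)
    (hU : IsOpen U) (hUS : U ⊆ S)
    {φ : EuclideanSpace ℝ (Fin n) → ℝ} (hφ : ContinuousOn φ S)
    (h2 : ∀ x ∈ U, ContDiffAt ℝ 2 φ x) {x₀ : EuclideanSpace ℝ (Fin n)} (hx₀ : x₀ ∈ S)
    {m d : ℝ} (hd0 : 0 < d) (hm : φ x₀ ≤ -m) (hd : ∀ x ∈ S, ‖x - x₀‖ ≤ d)
    (hb : ∀ x ∈ S, x ∉ U → 0 ≤ φ x) :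
    volume (Metric.ball (0 : EuclideanSpace ℝ (Fin n)) (m / d)) ≤
      ∫⁻ x in contactSet U φ, ENNReal.ofReal (hess φ x).det := by
  refine (measure_mono (ball_subset_grad_image hS hU hUS hφ h2 hx₀ hd0 hm hd hb)).trans ?_
  have h3 := addHaar_image_le_lintegral_abs_det_fderiv (μ := volume) (f := grad φ)
    (f' := fun x => (Matrix.toEuclideanLin (hess φ x)ᵀ).toContinuousLinearMap)
    (measurableSet_contactSet hU h2)
    (fun x hx => (hasFDerivAt_grad (h2 x hx.1)).hasFDerivWithinAt)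
  refine h3.trans (le_of_eq ?_)
  refine setLIntegral_congr_fun (measurableSet_contactSet hU h2) fun x hx => ?_
  simp only [det_toEuclideanLin, Matrix.det_transpose]
  rw [abs_of_nonneg hx.2.2.det_nonneg]

/-- ABP for a bounded open set: `φ` is continuous on the closure, `C²` inside, `φ ≥ 0` on the
boundary. -/
theorem abp_open {Ω : Set (EuclideanSpace ℝ (Fin n))} (hΩ : IsOpen Ω)
    (hbd : Bornology.IsBounded Ω)
    {φ : EuclideanSpace ℝ (Fin n) → ℝ} (hφ : ContinuousOn φ (closure Ω))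
    (h2 : ∀ x ∈ Ω, ContDiffAt ℝ 2 φ x) {x₀ : EuclideanSpace ℝ (Fin n)} (hx₀ : x₀ ∈ Ω)
    {m d : ℝ} (hd0 : 0 < d) (hm : φ x₀ ≤ -m) (hd : ∀ x ∈ Ω, ‖x - x₀‖ ≤ d)
    (hb : ∀ x ∈ frontier Ω, 0 ≤ φ x) :
    volume (Metric.ball (0 : EuclideanSpace ℝ (Fin n)) (m / d)) ≤
      ∫⁻ x in contactSet Ω φ, ENNReal.ofReal (hess φ x).det := by
  refine abp hbd.isCompact_closure hΩ subset_closure hφ h2 (subset_closure hx₀) hd0 hm ?_ ?_
  · exact closure_minimal hd (isClosed_le (f := fun x => ‖x - x₀‖) (g := fun _ => d)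
      (by fun_prop) continuous_const)
  · intro x hx hxn
    exact hb x ⟨hx, by rwa [hΩ.interior_eq]⟩

/-- ABP when the Hessian determinant is at most `Λ` on the contact set, and the contact set is
contained in `T`. -/
theorem abp_measure {S U : Set (EuclideanSpace ℝ (Fin n))} (hS : IsCompact S)
    (hU : IsOpen U) (hUS : U ⊆ S)
    {φ : EuclideanSpace ℝ (Fin n) → ℝ} (hφ : ContinuousOn φ S)
    (h2 : ∀ x ∈ U, ContDiffAt ℝ 2 φ x) {x₀ : EuclideanSpace ℝ (Fin n)} (hx₀ : x₀ ∈ S)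
    {m d : ℝ} (hd0 : 0 < d) (hm : φ x₀ ≤ -m) (hd : ∀ x ∈ S, ‖x - x₀‖ ≤ d)
    (hb : ∀ x ∈ S, x ∉ U → 0 ≤ φ x) {Λ : ℝ} {T : Set (EuclideanSpace ℝ (Fin n))}
    (hT : contactSet U φ ⊆ T) (hΛ : ∀ x ∈ contactSet U φ, (hess φ x).det ≤ Λ) :
    volume (Metric.ball (0 : EuclideanSpace ℝ (Fin n)) (m / d)) ≤
      ENNReal.ofReal Λ * volume T := by
  refine (abp hS hU hUS hφ h2 hx₀ hd0 hm hd hb).trans ?_
  calc ∫⁻ x in contactSet U φ, ENNReal.ofReal (hess φ x).det
      ≤ ∫⁻ x in contactSet U φ, ENNReal.ofReal Λ :=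
        setLIntegral_mono' (measurableSet_contactSet hU h2)
          (fun x hx => ENNReal.ofReal_le_ofReal (hΛ x hx))
    _ = ENNReal.ofReal Λ * volume (contactSet U φ) := by rw [setLIntegral_const]
    _ ≤ ENNReal.ofReal Λ * volume T := by gcongr

/-! ### The matrix arithmetic-geometric mean inequality -/

theorem det_le_trace_pow {A : Matrix (Fin n) (Fin n) ℝ} (hA : A.PosSemidef) (hn : 0 < n) :
    A.det ≤ (A.trace / n) ^ n := by
  have hH := hA.isHermitian
  have h1 : A.det = ∏ i, hH.eigenvalues i := by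
    simpa using hH.det_eq_prod_eigenvalues
  have h2 : A.trace = ∑ i, hH.eigenvalues i := by
    simpa using hH.trace_eq_sum_eigenvalues
  have hnn : ∀ i, 0 ≤ hH.eigenvalues i := fun i => hA.eigenvalues_nonneg i
  have hn' : (0 : ℝ) < n := by exact_mod_cast hn
  have h4 := Real.geom_mean_le_arith_mean_weighted Finset.univ (fun _ : Fin n => (1 : ℝ) / n)
    hH.eigenvalues (fun _ _ => by positivity) (by simp [hn'.ne']) (fun i _ => hnn i)
  have h5 : ∏ i, hH.eigenvalues i ^ ((1 : ℝ) / n) = (∏ i, hH.eigenvalues i) ^ ((1 : ℝ) / n) :=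
    Real.finsetProd_rpow _ _ (fun i _ => hnn i) _
  rw [h5, ← h1, ← Finset.mul_sum, ← h2] at h4
  have hdet : 0 ≤ A.det := hA.det_nonneg
  calc A.det = (A.det ^ ((1 : ℝ) / n)) ^ n := by
        rw [← Real.rpow_natCast, ← Real.rpow_mul hdet, one_div, inv_mul_cancel₀ hn'.ne',
          Real.rpow_one]
    _ ≤ (A.trace / n) ^ n := by
        refine pow_le_pow_left₀ (Real.rpow_nonneg hdet _) (h4.trans (le_of_eq (by ring))) n

open scoped MatrixOrder in
/-- Matrix arithmetic-geometric mean inequality. -/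
theorem det_mul_det_le {A B : Matrix (Fin n) (Fin n) ℝ} (hA : A.PosSemidef) (hB : B.PosSemidef)
    (hn : 0 < n) : A.det * B.det ≤ ((A * B).trace / n) ^ n := by
  obtain ⟨C, rfl⟩ := CStarAlgebra.nonneg_iff_eq_star_mul_self.mp hA.nonneg
  rw [Matrix.star_eq_conjTranspose] at hA ⊢
  have h1 : (C * B * Cᴴ).PosSemidef := hB.mul_mul_conjTranspose_same C
  have h2 := det_le_trace_pow h1 hn
  have h3 : (C * B * Cᴴ).trace = (Cᴴ * C * B).trace := by
    rw [Matrix.trace_mul_comm, ← Matrix.mul_assoc]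
  rw [h3] at h2
  refine le_trans (le_of_eq ?_) h2
  simp only [Matrix.det_mul]
  ring

/-- The pointwise ABP bound: if `H, P` are positive (semi)definite and `det H · tr(H⁻¹ P) ≤
n det H`, then `det P ≤ det H`. Used with `H = D²u`, `P = D²φ` and `U^{ij} φ_ij ≤ n D`. -/
theorem det_le_det_of_trace_le {H P : Matrix (Fin n) (Fin n) ℝ} (hH : H.PosDef)
    (hP : P.PosSemidef) (hn : 0 < n)
    (h : ∑ i, ∑ j, (H.det * H⁻¹ i j) * P i j ≤ n * H.det) : P.det ≤ H.det := by
  have hdet : 0 < H.det := hH.det_pos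
  have hn' : (0 : ℝ) < n := by exact_mod_cast hn
  have h1 := det_mul_det_le hH.inv.posSemidef hP hn
  have h2 : (H⁻¹ * P).trace = ∑ i, ∑ j, H⁻¹ i j * P i j := by
    simp only [Matrix.trace, Matrix.diag_apply, Matrix.mul_apply]
    refine Finset.sum_congr rfl fun i _ => Finset.sum_congr rfl fun j _ => ?_
    have := hP.isHermitian.apply i j
    rw [star_trivial] at this
    rw [this]
  have h3 : (H⁻¹ * P).trace ≤ n := by
    rw [h2]
    have h4 : H.det * ∑ i, ∑ j, H⁻¹ i j * P i j ≤ H.det * n := by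
      calc H.det * ∑ i, ∑ j, H⁻¹ i j * P i j = ∑ i, ∑ j, (H.det * H⁻¹ i j) * P i j := by
            simp only [Finset.mul_sum, mul_assoc]
        _ ≤ n * H.det := h
        _ = H.det * n := mul_comm _ _
    exact le_of_mul_le_mul_left h4 hdet
  have h5 : 0 ≤ (H⁻¹ * P).trace := by
    have := det_mul_det_le hH.inv.posSemidef hP hn
    obtain ⟨C, hC⟩ : ∃ C : Matrix (Fin n) (Fin n) ℝ, H⁻¹ = Cᴴ * C := by
      open scoped MatrixOrder in
      obtain ⟨C, hC⟩ := CStarAlgebra.nonneg_iff_eq_star_mul_self.mp hH.inv.posSemidef.nonneg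
      exact ⟨C, hC⟩
    rw [hC, ← Matrix.trace_mul_cycle]
    exact (hP.mul_mul_conjTranspose_same C).trace_nonneg
  have h6 : ((H⁻¹ * P).trace / n) ^ n ≤ 1 :=
    pow_le_one₀ (by positivity) ((div_le_one hn').2 h3)
  rw [Matrix.det_nonsing_inv, Ring.inverse_eq_inv'] at h1
  have h7 : H.det⁻¹ * P.det ≤ 1 := h1.trans h6
  rwa [inv_mul_le_iff₀ hdet, mul_one] at h7

end Vale.Agent.P252.H402
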