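import Vale.Agent.P252.H402.ABP
import Vale.Agent.P252.H429.Base
import Vale.Agent.P252.R.Common

/-! The contact step of the small supersolution theorem. -/

open scoped ContDiff Topology Matrix RealInnerProductSpace
open MeasureTheory Set Filter

namespace Vale.Agent.P252.H402

open Vale.Agent.P252.R

variable {n : ℕ} {Ω : Set (En n)} {u v : En n → ℝ}

lemma inner_grad (b y : En n) : ⟪grad u b, y⟫ = ∑ i, pd i u b * y i := by
  simp [grad, PiLp.inner_apply, mul_comm]

lemma measurableSet_psd {U : Set (En n)} (hU : IsOpen U)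
    {φ : En n → ℝ} (h2 : ∀ x ∈ U, ContDiffAt ℝ 2 φ x) :
    MeasurableSet {x | x ∈ U ∧ (hess φ x).PosSemidef} := by
  have hh : ContinuousOn (hess φ) U := fun x hx =>
    (continuousAt_hess (h2 x hx)).continuousWithinAt
  set C : Set (Matrix (Fin n) (Fin n) ℝ) := {A | ∀ v : Fin n → ℝ, 0 ≤ v ⬝ᵥ (A *ᵥ v)} with hC
  have hCc : IsClosed C := by
    rw [hC, ofPred_forall]
    refine isClosed_iInter fun v => isClosed_le continuous_const ?_
    exact Continuous.dotProduct continuous_const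
      (Continuous.matrix_mulVec continuous_id continuous_const)
  have h3 : {x | x ∈ U ∧ (hess φ x).PosSemidef} = U \ (U ∩ hess φ ⁻¹' Cᶜ) := by
    ext x
    simp only [mem_ofPred_eq, Set.mem_sdiff, mem_inter_iff, mem_preimage, mem_compl_iff]
    constructor
    · rintro ⟨h4, h6⟩
      refine ⟨h4, fun h7 => h7.2 ?_⟩
      intro w
      simpa using h6.dotProduct_mulVec_nonneg w
    · rintro ⟨h4, h6⟩
      refine ⟨h4, ?_⟩
      have h7 : hess φ x ∈ C := by
        by_contra h8
        exact h6 ⟨h4, h8⟩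
      exact Matrix.PosSemidef.of_dotProduct_mulVec_nonneg (hess_isHermitian (h2 x h4))
        fun w => by simpa using h7 w
  rw [h3]
  exact hU.measurableSet.diff (hh.isOpen_inter_preimage hU hCc.isOpen_compl).measurableSet

lemma sum_inv_mul_self {H : Matrix (Fin n) (Fin n) ℝ} (hH : H.PosDef) :
    ∑ i, ∑ j, H⁻¹ i j * H i j = n := by
  have h1 : (H⁻¹ * H).trace = n := by
    rw [Matrix.nonsing_inv_mul _ hH.det_pos.ne'.isUnit]
    simp
  rw [← h1, Matrix.trace]
  refine Finset.sum_congr rfl fun i _ => ?_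
  rw [Matrix.diag_apply, Matrix.mul_apply]
  refine Finset.sum_congr rfl fun j _ => ?_
  have := hH.isHermitian.apply i j
  rw [star_trivial] at this
  rw [this]

lemma contDiffAt_two (h : ContDiffOn ℝ ∞ v Ω) (hΩ : IsOpen Ω) {x : En n} (hx : x ∈ Ω) :
    ContDiffAt ℝ 2 v x :=
  (h.contDiffAt (hΩ.mem_nhds hx)).of_le (WithTop.coe_le_coe.2 le_top)

lemma grad_injOn (h : SC Ω u) (hcv : Convex ℝ Ω) : InjOn (grad u) Ω := by
  intro x hx y hy hxy
  apply fderiv_injOn h.op hcv h.sm h.pos hx hy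
  ext z
  rw [fderiv_apply_eq_sum_pd, fderiv_apply_eq_sum_pd]
  refine Finset.sum_congr rfl fun i _ => ?_
  have : grad u x i = grad u y i := by rw [hxy]
  simp only [grad] at this
  rw [this]

/-- For `b` in the small section there is a contact point. -/
lemma exists_contact_section (h : SC Ω u) (hcv : Convex ℝ Ω) {θ ε t : ℝ} {a : En n}
    (hcomp : IsCompact {x | x ∈ Ω ∧ brg u a x ≤ t}) (hθ : θ ≤ 1 / 4) (hE : Engulf θ Ω u)
    (hv : ContDiffOn ℝ ∞ v Ω) (hv0 : ∀ x ∈ Ω, 0 ≤ v x) (ha : a ∈ Ω) (hε : 0 < ε) (hva : v a ≤ ε)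
    (ht : 0 < t) {b : En n} (hb : b ∈ Ω) (hab : brg u a b ≤ θ * t) :
    ∃ y, y ∈ Sec Ω u a t ∧ v y ≤ 4 * ε ∧ (hess (fun x => u x + t / (8 * ε) * v x) y).PosSemidef ∧
      grad (fun x => u x + t / (8 * ε) * v x) y = grad u b := by
  set c : ℝ := t / (8 * ε) with hc
  have hc0 : 0 < c := by positivity
  have hcε : c * ε = t / 8 := by rw [hc]; field_simp
  have haS : a ∈ {x | x ∈ Ω ∧ brg u a x ≤ t} := ⟨ha, by simpa [brg] using ht.le⟩
  have hcont : ContinuousOn (fun y => c * v y + brg u b y) {x | x ∈ Ω ∧ brg u a x ≤ t} :=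
    ((continuousOn_const.mul hv.continuousOn).add (continuousOn_brg h b)).mono fun x hx => hx.1
  obtain ⟨y, hyS, hy⟩ := hcomp.exists_isMinOn ⟨a, haS⟩ hcont
  have hmin : ∀ z, z ∈ Ω → brg u a z ≤ t → c * v y + brg u b y ≤ c * v z + brg u b z :=
    fun z h1 h2 => hy ⟨h1, h2⟩
  have hga : c * v a + brg u b a ≤ 3 / 8 * t := by
    have h1 : c * v a ≤ c * ε := mul_le_mul_of_nonneg_left hva hc0.le
    have h2 := brg_change u a b a
    have h3 := hE a ha t ht b hb hab a ha (by simpa [brg] using ht.le)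
    have h4 := (abs_le.1 h3).1
    have h5 := brg_nonneg h hcv ha hb
    have h6 : brg u a a = 0 := by simp [brg]
    rw [h2, h6]
    rw [hcε] at h1
    linarith
  have hgy := (hmin a ha (by simpa [brg] using ht.le)).trans hga
  have hyb := brg_nonneg h hcv hb hyS.1
  have hvy := hv0 y hyS.1
  have hcvy : 0 ≤ c * v y := mul_nonneg hc0.le hvy
  have hyt : brg u a y < t := by
    by_contra hcon
    push Not at hcon
    have h2 := brg_change u a b y
    have h3 := hE a ha t ht b hb hab y hyS.1 hyS.2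
    have h4 := (abs_le.1 h3).2
    have h5 : θ * t ≤ 1 / 4 * t := mul_le_mul_of_nonneg_right hθ ht.le
    have h6 : t / 2 ≤ brg u b y := by rw [h2]; linarith
    linarith
  have hySec : y ∈ Sec Ω u a t := ⟨hyS.1, hyt⟩
  have hv4 : v y ≤ 4 * ε := by
    have h1 : c * v y ≤ c * (3 * ε) := by
      have : c * (3 * ε) = 3 / 8 * t := by
        rw [show c * (3 * ε) = 3 * (c * ε) by ring, hcε]; ring
      rw [this]
      linarith
    have h2 := le_of_mul_le_mul_left h1 hc0
    linarith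
  have hw2 : ContDiffAt ℝ 2 (fun x => u x + c * v x) y :=
    (contDiffAt_two h.sm h.op hyS.1).add (contDiffAt_const.mul (contDiffAt_two hv h.op hyS.1))
  have hloc : IsLocalMin (fun z => (u z + c * v z) - ⟪grad u b, z⟫) y := by
    filter_upwards [(isOpen_Sec h a t).mem_nhds hySec] with z hz
    have h1 := hmin z hz.1 hz.2.le
    rw [inner_grad, inner_grad]
    unfold brg at h1
    have h2 : ∀ z : En n, ∑ i, pd i u b * (z i - b i) = ∑ i, pd i u b * z i -
        ∑ i, pd i u b * b i := by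
      intro z
      rw [← Finset.sum_sub_distrib]
      exact Finset.sum_congr rfl fun i _ => by ring
    rw [h2, h2] at h1
    linarith
  obtain ⟨h3, h4⟩ := contact_conditions hw2 hloc
  refine ⟨y, hySec, hv4, h4, ?_⟩
  ext i
  have := h3 i
  simpa [grad] using this

/-- The determinant of the contact matrix. -/
lemma det_contact_le (h : SC Ω u) (hv : ContDiffOn ℝ ∞ v Ω) (hn : 0 < n) {c : ℝ} (hc : 0 ≤ c)
    {y : En n} (hy : y ∈ Ω) (hL : Lop u v y ≤ 0)
    (hp : (hess (fun x => u x + c * v x) y).PosSemidef) :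
    (hess (fun x => u x + c * v x) y).det ≤ dt u y := by
  apply det_le_det_of_trace_le (h.pos y hy) hp hn
  have hu2 := contDiffAt_two h.sm h.op hy
  have hv2 := contDiffAt_two hv h.op hy
  have h1 : ∀ i j, hess (fun x => u x + c * v x) y i j = hess u y i j + c * hess v y i j := by
    intro i j
    rw [H429.hess_add hu2 (contDiffAt_const.mul hv2), H429.hess_const_mul c hv2]
  have h2 : ∑ i, ∑ j, ((hess u y).det * (hess u y)⁻¹ i j) *
      hess (fun x => u x + c * v x) y i j =
      (hess u y).det * (∑ i, ∑ j, (hess u y)⁻¹ i j * hess u y i j) +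
      (hess u y).det * (c * Lop u v y) := by
    unfold Lop
    simp only [Finset.mul_sum]
    rw [← Finset.sum_add_distrib]
    refine Finset.sum_congr rfl fun i _ => ?_
    rw [← Finset.sum_add_distrib]
    refine Finset.sum_congr rfl fun j _ => ?_
    rw [h1]
    simp only [hess, Matrix.of_apply]
    ring
  rw [h2, sum_inv_mul_self (h.pos y hy)]
  have h3 : 0 < (hess u y).det := (h.pos y hy).det_pos
  have h4 : (hess u y).det * (c * Lop u v y) ≤ 0 :=
    mul_nonpos_of_nonneg_of_nonpos h3.le (mul_nonpos_of_nonneg_of_nonpos hc hL)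
  linarith

/-- **Contact estimate.** -/
theorem contact_meas (h : SC Ω u) (hcv : Convex ℝ Ω) (hn : 0 < n) {m M θ ε t : ℝ} {a : En n}
    (hcomp : IsCompact {x | x ∈ Ω ∧ brg u a x ≤ t})
    (hpin : ∀ x ∈ Ω, m ≤ dt u x ∧ dt u x ≤ M) (hθ : θ ≤ 1 / 4) (hE : Engulf θ Ω u)
    (hv : ContDiffOn ℝ ∞ v Ω) (hv0 : ∀ x ∈ Ω, 0 ≤ v x) (hL : ∀ x ∈ Ω, Lop u v x ≤ 0)
    (ha : a ∈ Ω) (hε : 0 < ε) (hva : v a ≤ ε) (ht : 0 < t) :
    ENNReal.ofReal m * volume (Sec Ω u a (θ * t)) ≤
      ENNReal.ofReal M * volume {x | x ∈ Sec Ω u a t ∧ v x ≤ 4 * ε} := by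
  set c : ℝ := t / (8 * ε) with hc
  have hc0 : 0 < c := by positivity
  set w : En n → ℝ := fun x => u x + c * v x with hw
  set T := Sec Ω u a (θ * t) with hT
  have hTm : MeasurableSet T := (isOpen_Sec h a (θ * t)).measurableSet
  set U := Sec Ω u a t with hU
  have hUo : IsOpen U := isOpen_Sec h a t
  have hUΩ : U ⊆ Ω := fun x hx => hx.1
  have hw2 : ∀ x ∈ U, ContDiffAt ℝ 2 w x := fun x hx =>
    (contDiffAt_two h.sm h.op (hUΩ hx)).add
      (contDiffAt_const.mul (contDiffAt_two hv h.op (hUΩ hx)))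
  set A : Set (En n) := {x | x ∈ U ∧ (hess w x).PosSemidef} \ (U ∩ v ⁻¹' Ioi (4 * ε)) with hA
  have hAm : MeasurableSet A := (measurableSet_psd hUo hw2).diff
    (((hv.continuousOn.mono hUΩ).isOpen_inter_preimage hUo isOpen_Ioi).measurableSet)
  have hAU : A ⊆ U := fun x hx => hx.1.1
  have hAv : A ⊆ {x | x ∈ U ∧ v x ≤ 4 * ε} := by
    intro x hx
    refine ⟨hAU hx, ?_⟩
    by_contra hcon
    push Not at hcon
    exact hx.2 ⟨hAU hx, hcon⟩
  have hsub : grad u '' T ⊆ grad w '' A := by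
    rintro _ ⟨b, hb, rfl⟩
    obtain ⟨y, hy1, hy2, hy3, hy4⟩ := exists_contact_section h hcv hcomp hθ hE hv hv0 ha hε hva ht
      hb.1 hb.2.le
    exact ⟨y, ⟨⟨hy1, hy3⟩, fun hcon => absurd hy2 (not_le.2 hcon.2)⟩, hy4⟩
  have hlow : ENNReal.ofReal m * volume T ≤ volume (grad u '' T) := by
    have h1 := lintegral_abs_det_fderiv_eq_addHaar_image (volume : Measure (En n)) hTm
      (f := grad u) (f' := fun x => (Matrix.toEuclideanLin (hess u x)ᵀ).toContinuousLinearMap)
      (fun x hx => (hasFDerivAt_grad (contDiffAt_two h.sm h.op hx.1)).hasFDerivWithinAt)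
      ((grad_injOn h hcv).mono fun x hx => hx.1)
    rw [← h1, ← setLIntegral_const]
    refine setLIntegral_mono' hTm fun x hx => ?_
    apply ENNReal.ofReal_le_ofReal
    rw [det_toEuclideanLin, Matrix.det_transpose, abs_of_pos (h.pos x hx.1).det_pos]
    exact (hpin x hx.1).1
  have hup : volume (grad w '' A) ≤ ENNReal.ofReal M * volume A := by
    have h1 := addHaar_image_le_lintegral_abs_det_fderiv (μ := volume) (f := grad w)
      (f' := fun x => (Matrix.toEuclideanLin (hess w x)ᵀ).toContinuousLinearMap) hAm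
      (fun x hx => (hasFDerivAt_grad (hw2 x (hAU hx))).hasFDerivWithinAt)
    refine h1.trans ?_
    rw [← setLIntegral_const]
    refine setLIntegral_mono' hAm fun x hx => ?_
    apply ENNReal.ofReal_le_ofReal
    have h2 : 0 ≤ (hess w x).det := hx.1.2.det_nonneg
    rw [det_toEuclideanLin, Matrix.det_transpose, abs_of_nonneg h2]
    have hxΩ := hUΩ (hAU hx)
    exact (det_contact_le h hv hn hc0.le hxΩ (hL x hxΩ) hx.1.2).trans (hpin x hxΩ).2
  calc ENNReal.ofReal m * volume T ≤ volume (grad u '' T) := hlow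
    _ ≤ volume (grad w '' A) := measure_mono hsub
    _ ≤ ENNReal.ofReal M * volume A := hup
    _ ≤ ENNReal.ofReal M * volume {x | x ∈ U ∧ v x ≤ 4 * ε} := by gcongr

end Vale.Agent.P252.H402
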