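import Vale.Agent.P252.H402.Contact
import Vale.Agent.P252.H338.Core1

/-! The contact step in normalised position. -/

open scoped ContDiff Topology Matrix RealInnerProductSpace
open MeasureTheory Set Filter

namespace Vale.Agent.P252.H402

open Vale.Agent.P252.R

variable {n : ℕ}

lemma hess_sub_const (w : En n → ℝ) (k : ℝ) : hess (fun y => w y - k) = hess w := by
  have h1 : ∀ j, pd j (fun y => w y - k) = pd j w := by
    intro j
    funext x
    simp only [pd, fderiv_sub_const]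
  funext x
  ext i j
  simp only [hess, Matrix.of_apply, h1]

/-- **Contact estimate in normalised position.** -/
theorem contact_NF {Ω : Set (En n)} {f : En n → ℝ} {x₀ : En n} {rad m M : ℝ}
    (h : H338.NF Ω f x₀ rad m M) (hn : 0 < n) {v : En n → ℝ} (hv : ContDiffOn ℝ ∞ v Ω)
    (hv0 : ∀ x ∈ Ω, 0 ≤ v x) (hL : ∀ x ∈ Ω, Lop f v x ≤ 0) {ε : ℝ} (hε : 0 < ε)
    (hvx : v x₀ ≤ ε) :
    volume (Metric.ball (0 : En n) (1 / (8 * rad))) ≤
      ENNReal.ofReal M * volume {x | x ∈ Ω ∧ f x < 1 / 2 ∧ v x ≤ 8 * ε} := by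
  have hrad := h.rad_ge hn
  have hrad0 : 0 < rad := by linarith
  set c : ℝ := 1 / (16 * ε) with hc
  have hc0 : 0 < c := by positivity
  have hcε : c * ε = 1 / 16 := by rw [hc]; field_simp
  set w : En n → ℝ := fun x => f x + c * v x with hw
  have hcomp : IsCompact {x | x ∈ Ω ∧ f x ≤ 1 / 2} := h.compact_sub (by norm_num)
  have hopen : IsOpen {x | x ∈ Ω ∧ f x < 1 / 2} := h.isOpen_sub _
  have hw2 : ∀ x ∈ Ω, ContDiffAt ℝ 2 w x := fun x hx =>
    (contDiffAt_two h.sc.sm h.sc.op hx).add (contDiffAt_const.mul (contDiffAt_two hv h.sc.op hx))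
  have hrr : (1 : ℝ) / (8 * rad) = (1 / 4) / (2 * rad) := by
    field_simp
    norm_num
  rw [hrr]
  have hdist : ∀ x ∈ Ω, f x ≤ 1 → ‖x - x₀‖ ≤ 2 * rad := by
    intro x hx hfx
    have h1 := h.out x hx hfx
    have h2 := h.out x₀ h.x0m (by rw [h.fx0]; norm_num)
    have h3 := norm_sub_le x x₀
    linarith
  refine abp_measure (S := {x | x ∈ Ω ∧ f x ≤ 1 / 2}) (U := {x | x ∈ Ω ∧ f x < 1 / 2}) hcomp hopen
    (fun x hx => ⟨hx.1, hx.2.le⟩) (φ := fun x => w x - 1 / 2) ?_ ?_ (x₀ := x₀)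
    ⟨h.x0m, by rw [h.fx0]; norm_num⟩ (by positivity) ?_ (fun x hx => hdist x hx.1
      (hx.2.trans (by norm_num))) ?_ ?_ ?_
  · exact ((h.cont.add (continuousOn_const.mul hv.continuousOn)).sub continuousOn_const).mono
      fun x hx => hx.1
  · intro x hx
    exact (hw2 x hx.1).sub contDiffAt_const
  · simp only [hw, h.fx0]
    have : c * v x₀ ≤ c * ε := mul_le_mul_of_nonneg_left hvx hc0.le
    linarith
  · intro x hx hxn
    have h1 : ¬ f x < 1 / 2 := fun h2 => hxn ⟨hx.1, h2⟩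
    have h2 : 0 ≤ c * v x := mul_nonneg hc0.le (hv0 x hx.1)
    simp only [hw]
    linarith
  · rintro x ⟨hxU, hneg, -⟩
    refine ⟨hxU.1, hxU.2, ?_⟩
    simp only [hw] at hneg
    have h1 := h.nn x hxU.1
    have h2 : c * v x ≤ c * (8 * ε) := by
      rw [show c * (8 * ε) = 8 * (c * ε) by ring, hcε]
      linarith
    exact le_of_mul_le_mul_left h2 hc0
  · rintro x ⟨hxU, -, hpsd⟩
    rw [hess_sub_const] at hpsd ⊢
    exact (det_contact_le h.sc hv hn hc0.le hxU.1 (hL x hxU.1) hpsd).trans (h.hM x hxU.1)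

end Vale.Agent.P252.H402
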