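import Vale.Agent.P252.R.Spec
import Vale.Agent.P252.H747.Sections2

/-! Ultralimits of supporting hyperplanes. -/

open scoped ContDiff Topology
open Filter MeasureTheory

namespace Vale.Agent.P252.H402

open Vale.Agent.P252.R

variable {n : ℕ}

/-- The ultrafilter of the spec. -/
noncomputable abbrev UF : Filter ℕ := (hyperfilter ℕ : Filter ℕ)

lemma uf_le_atTop : UF ≤ atTop := Nat.hyperfilter_le_atTop

lemma exists_lim {E : Type*} [TopologicalSpace E] {f : ℕ → E} {s : Set E} (hs : IsCompact s)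
    (h : ∀ᶠ j in UF, f j ∈ s) : ∃ a ∈ s, Tendsto f UF (𝓝 a) := by
  obtain ⟨a, ha, hle⟩ := hs.ultrafilter_le_nhds ((hyperfilter ℕ).map f) (by
    rw [Filter.le_principal_iff]
    exact h)
  exact ⟨a, ha, hle⟩

lemma bdd_or_atTop (g : ℕ → ℝ) : (∃ C, ∀ᶠ j in UF, g j ≤ C) ∨ Tendsto g UF atTop := by
  by_cases h : ∃ C, ∀ᶠ j in UF, g j ≤ C
  · exact Or.inl h
  · right
    rw [tendsto_atTop]
    intro C
    have h2 : ∀ᶠ j in UF, ¬ g j ≤ C := (Ultrafilter.eventually_not).2 fun h1 => h ⟨C, h1⟩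
    filter_upwards [h2] with j hj
    exact (not_le.1 hj).le

lemma mem_ulim_of_tendsto {V : Type*} [SeminormedAddCommGroup V] {K : ℕ → Set V} {q : ℕ → V}
    {p : V} (hq : ∀ᶠ j in UF, q j ∈ K j) (h : Tendsto q UF (𝓝 p)) : p ∈ ulim K := by
  intro ε hε
  filter_upwards [hq, h.eventually (Metric.closedBall_mem_nhds p hε)] with j h1 h2
  exact ⟨q j, h1, by rw [← dist_eq_norm, dist_comm]; exact h2⟩

lemma exists_seq_of_mem_ulim {V : Type*} [SeminormedAddCommGroup V] {K : ℕ → Set V} {p : V}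
    (hp : p ∈ ulim K) : ∃ q : ℕ → V, (∀ᶠ j in UF, q j ∈ K j) ∧ Tendsto q UF (𝓝 p) := by
  classical
  have hne : ∀ᶠ j in UF, (K j).Nonempty := by
    filter_upwards [hp 1 one_pos] with j hj
    obtain ⟨q, hq, _⟩ := hj
    exact ⟨q, hq⟩
  have hex : ∀ j : ℕ, ∃ q : V, (K j).Nonempty →
      q ∈ K j ∧ dist p q < Metric.infDist p (K j) + 1 / ((j : ℝ) + 1) := by
    intro j
    by_cases h : (K j).Nonempty
    · obtain ⟨q, hq, hlt⟩ := (Metric.infDist_lt_iff h).1 (lt_add_of_pos_right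
        (Metric.infDist p (K j)) (by positivity : (0 : ℝ) < 1 / ((j : ℝ) + 1)))
      exact ⟨q, fun _ => ⟨hq, hlt⟩⟩
    · exact ⟨p, fun h' => (h h').elim⟩
  choose q hq using hex
  refine ⟨q, hne.mono fun j h => (hq j h).1, ?_⟩
  rw [Metric.tendsto_nhds]
  intro ε hε
  have h1 := hp (ε / 4) (by positivity)
  have h2 : ∀ᶠ j : ℕ in UF, 1 / ((j : ℝ) + 1) < ε / 2 :=
    (tendsto_one_div_add_atTop_nhds_zero_nat.mono_left uf_le_atTop).eventually_lt_const
      (by positivity)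
  filter_upwards [hne, h1, h2] with j h3 h4 h5
  obtain ⟨r, hr, hpr⟩ := h4
  have h6 := (hq j h3).2
  have h7 : Metric.infDist p (K j) ≤ ε / 4 := by
    refine (Metric.infDist_le_dist_of_mem hr).trans ?_
    rw [dist_eq_norm]; exact hpr
  rw [dist_comm]
  linarith

/-- Convergence of pairings. -/
lemma tendsto_pair {p : ℕ → Fin n → ℝ} {b : Fin n → ℝ} (hp : Tendsto p UF (𝓝 b))
    {y : ℕ → En n × ℝ} {y' : En n × ℝ} (hy : Tendsto y UF (𝓝 y')) :
    Tendsto (fun j => ∑ i, p j i * (y j).1 i) UF (𝓝 (∑ i, b i * y'.1 i)) := by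
  apply tendsto_finsetSum
  intro i _
  apply Tendsto.mul
  · exact (tendsto_pi_nhds.1 hp) i
  · have h1 : Continuous fun z : En n × ℝ => z.1 i := by fun_prop
    exact (h1.tendsto y').comp hy

lemma tendsto_snd {y : ℕ → En n × ℝ} {y' : En n × ℝ} (hy : Tendsto y UF (𝓝 y')) :
    Tendsto (fun j => (y j).2) UF (𝓝 y'.2) := (continuous_snd.tendsto y').comp hy

/-- Limits of supporting hyperplanes touching asymptotically at `q j → q'`. -/
lemma support_lim {K : ℕ → Set (En n × ℝ)} {p : ℕ → Fin n → ℝ} {l : ℕ → ℝ}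
    {q : ℕ → En n × ℝ} {q' : En n × ℝ}
    (hsup : ∀ᶠ j in UF, ∀ y ∈ K j, ∑ i, p j i * y.1 i - l j ≤ y.2)
    (hq : Tendsto q UF (𝓝 q'))
    (hcon : Tendsto (fun j => ∑ i, p j i * (q j).1 i - l j - (q j).2) UF (𝓝 0)) :
    (∃ w : Fin n → ℝ, w ≠ 0 ∧ ∀ y ∈ ulim K, ∑ i, w i * q'.1 i ≤ ∑ i, w i * y.1 i) ∨
    (∃ b : Fin n → ℝ, Tendsto p UF (𝓝 b) ∧
      ∀ y ∈ ulim K, ∑ i, b i * y.1 i + (q'.2 - ∑ i, b i * q'.1 i) ≤ y.2) := by
  rcases bdd_or_atTop fun j => ‖p j‖ with ⟨C, hC⟩ | hT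
  · right
    obtain ⟨b, -, hb⟩ := exists_lim (isCompact_closedBall (0 : Fin n → ℝ) C)
      (hC.mono fun j hj => by simpa using hj)
    refine ⟨b, hb, fun y hy => ?_⟩
    obtain ⟨r, hr, hry⟩ := exists_seq_of_mem_ulim hy
    have h1 : Tendsto (fun j => ∑ i, p j i * (r j).1 i + ((q j).2 - ∑ i, p j i * (q j).1 i) +
        (∑ i, p j i * (q j).1 i - l j - (q j).2)) UF
        (𝓝 (∑ i, b i * y.1 i + (q'.2 - ∑ i, b i * q'.1 i) + 0)) :=
      ((tendsto_pair hb hry).add ((tendsto_snd hq).sub (tendsto_pair hb hq))).add hcon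
    rw [add_zero] at h1
    refine le_of_tendsto_of_tendsto h1 (tendsto_snd hry) ?_
    filter_upwards [hr, hsup] with j hj1 hj2
    have := hj2 _ hj1
    linarith
  · left
    obtain ⟨e, he, hlim⟩ := exists_lim (f := fun j => ‖p j‖⁻¹ • p j)
      (isCompact_sphere (0 : Fin n → ℝ) 1) (by
        filter_upwards [hT.eventually_gt_atTop 0] with j hj
        rw [mem_sphere_zero_iff_norm, norm_smul, norm_inv, norm_norm]
        exact inv_mul_cancel₀ hj.ne')
    have he1 : ‖e‖ = 1 := by simpa using he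
    refine ⟨-e, ?_, fun y hy => ?_⟩
    · intro h0
      have h1 : e = 0 := by simpa using h0
      rw [h1, norm_zero] at he1
      exact zero_ne_one he1
    obtain ⟨r, hr, hry⟩ := exists_seq_of_mem_ulim hy
    have hinv : Tendsto (fun j => ‖p j‖⁻¹) UF (𝓝 0) := tendsto_inv_atTop_zero.comp hT
    have h1 : Tendsto (fun j => ‖p j‖⁻¹ * ((r j).2 - (q j).2 -
        (∑ i, p j i * (q j).1 i - l j - (q j).2))) UF (𝓝 (0 * (y.2 - q'.2 - 0))) :=
      hinv.mul (((tendsto_snd hry).sub (tendsto_snd hq)).sub hcon)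
    rw [zero_mul] at h1
    have h2 : Tendsto (fun j => ∑ i, (‖p j‖⁻¹ • p j) i * (r j).1 i -
        ∑ i, (‖p j‖⁻¹ • p j) i * (q j).1 i) UF
        (𝓝 (∑ i, e i * y.1 i - ∑ i, e i * q'.1 i)) :=
      (tendsto_pair hlim hry).sub (tendsto_pair hlim hq)
    have h3 : ∑ i, e i * y.1 i - ∑ i, e i * q'.1 i ≤ 0 := by
      refine le_of_tendsto_of_tendsto h2 h1 ?_
      filter_upwards [hr, hsup, hT.eventually_gt_atTop 0] with j hj1 hj2 hj3
      have h4 := hj2 _ hj1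
      have h5 : ∀ z : En n, ∑ i, (‖p j‖⁻¹ • p j) i * z i = ‖p j‖⁻¹ * ∑ i, p j i * z i := by
        intro z
        rw [Finset.mul_sum]
        apply Finset.sum_congr rfl
        intro i _
        simp only [Pi.smul_apply, smul_eq_mul]
        ring
      rw [h5, h5, ← mul_sub]
      apply mul_le_mul_of_nonneg_left _ (inv_nonneg.2 hj3.le)
      linarith
    simp only [Pi.neg_apply, neg_mul, Finset.sum_neg_distrib]
    linarith

/-- Tangent plane inequality in coordinates. -/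
lemma tangent_epi {Ω : Set (En n)} {u : En n → ℝ} (h : SC Ω u) (hcv : Convex ℝ Ω) {x : En n}
    (hx : x ∈ Ω) : ∀ y ∈ epi Ω u, ∑ i, pd i u x * y.1 i - leg u x ≤ y.2 := by
  rintro ⟨y, z⟩ ⟨hy, hz⟩
  have h1 := tangent_le h.op hcv h.sm h.pos hx hy
  rw [fderiv_apply_eq_sum_pd] at h1
  simp only at hy hz ⊢
  have h2 : ∑ i, (y - x) i * pd i u x = ∑ i, pd i u x * y i - ∑ i, x i * pd i u x := by
    rw [← Finset.sum_sub_distrib]
    apply Finset.sum_congr rfl
    intro i _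
    simp only [PiLp.sub_apply]
    ring
  rw [h2] at h1
  unfold leg
  linarith

end Vale.Agent.P252.H402
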